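import Vale.Agent.P141.Main

/-!
P141: the trilinear Hilbert transform is unbounded at every Hölder tuple with `r < 0.459`, in the
region `0.4745/p₁ + 0.4658/p₂ + 0.4429/p₃ > 1`, and at `(3r,3r,3r,r)` for `1/3 < r ≤ 0.461`.
-/

namespace Vale.Agent.Results.P141.UnboundedRange

open Vale.Agent.P141
open scoped ENNReal

theorem result :
    (∀ p₁ p₂ p₃ r : ℝ≥0∞, IsHolder p₁ p₂ p₃ r → r < 459 / 1000 → ¬ BoundedAt p₁ p₂ p₃ r) ∧
    (∀ p₁ p₂ p₃ r : ℝ≥0∞, IsHolder p₁ p₂ p₃ r →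
      1 < 0.4745 / p₁.toReal + 0.4658 / p₂.toReal + 0.4429 / p₃.toReal →
        ¬ BoundedAt p₁ p₂ p₃ r) ∧
    (∀ r : ℝ≥0∞, 1 / 3 < r → r ≤ 461 / 1000 →
      IsHolder (3 * r) (3 * r) (3 * r) r ∧ ¬ BoundedAt (3 * r) (3 * r) (3 * r) r) :=
  ⟨fun _ _ _ _ hH hr => not_bounded_small hH hr, fun _ _ _ _ hH hc => not_bounded_region hH hc,
    fun _ h1 h2 => not_bounded_balanced h1 h2⟩

end Vale.Agent.Results.P141.UnboundedRange
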